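import Mathlib
import Vale.Agent.Lib.P038.Composition

/-!
# P038: compositions over vertex-transitive oriented graphs

Let `C` be a finite vertex-transitive oriented graph on `I` and let `D` be a digraph on `V`
obtained by substituting a digraph `D_i` (on the fibre `p ⁻¹ i`) for every vertex `i` of `C`:
between different fibres the arcs of `D` are dictated by `C`.  If every `D_i` has a vertex `v`
with `|N_1^+(v)| ≤ |N_2^+(v)|` (inside `D_i`), then `D` has such a vertex.
-/

namespace Vale.Agent.Results.P038.Composition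

open Finset

theorem result {V I : Type*} [Fintype V] [DecidableEq V] [Fintype I] [DecidableEq I]
    [Nonempty I] (D : Digraph V) [DecidableRel D.Adj] (C : Digraph I) [DecidableRel C.Adj]
    (hC : ∀ i j, C.Adj i j → ¬ C.Adj j i)
    (hCtrans : ∀ i j : I, ∃ φ : Equiv.Perm I, (∀ a b, C.Adj (φ a) (φ b) ↔ C.Adj a b) ∧ φ i = j)
    (p : V → I) (hp : Function.Surjective p)
    (hmod : ∀ x y, p x ≠ p y → (D.Adj x y ↔ C.Adj (p x) (p y)))
    (hfib : ∀ i : I, ∃ v : V, p v = i ∧
      (univ.filter (fun u => p u = i ∧ D.Adj v u)).card ≤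
        (univ.filter (fun w => p w = i ∧ w ≠ v ∧ ¬ D.Adj v w ∧
          ∃ u, p u = i ∧ D.Adj v u ∧ D.Adj u w)).card) :
    ∃ v : V, (univ.filter (fun u => D.Adj v u)).card ≤
      (univ.filter (fun w => w ≠ v ∧ ¬ D.Adj v w ∧ ∃ u, D.Adj v u ∧ D.Adj u w)).card :=
  Vale.Agent.Lib.P038.composition_ssn D C hC hCtrans p hp hmod hfib

end Vale.Agent.Results.P038.Composition
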