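import Mathlib
import Vale.Agent.Lib.P038.Composition
import Vale.Agent.Lib.P038.VertexTransitive

/-!
# P038: four classes of oriented graphs with a second neighbourhood vertex

One statement collecting four classes of finite oriented graphs in which some vertex `v` has
`|N_1^+(v)| ≤ |N_2^+(v)|`:

1. vertex-transitive oriented graphs (every vertex works);
2. blow-ups of vertex-transitive oriented graphs (vertices replaced by independent sets of
   arbitrary positive sizes);
3. compositions over a vertex-transitive oriented graph whose fibres each have such a vertex;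
4. oriented graphs in which every out-neighbourhood induces an acyclic digraph.
-/

namespace Vale.Agent.Results.P038.FourClasses

open Finset

theorem result :
    (∀ {V : Type*} [Fintype V] [DecidableEq V] (D : Digraph V) [DecidableRel D.Adj],
      (∀ u v, D.Adj u v → ¬ D.Adj v u) →
      (∀ u v : V, ∃ φ : Equiv.Perm V, (∀ x y, D.Adj (φ x) (φ y) ↔ D.Adj x y) ∧ φ u = v) →
      ∀ v : V, (univ.filter (fun u => D.Adj v u)).card ≤
        (univ.filter (fun w => w ≠ v ∧ ¬ D.Adj v w ∧ ∃ u, D.Adj v u ∧ D.Adj u w)).card) ∧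
    (∀ {V I : Type*} [Fintype V] [DecidableEq V] [Fintype I] [DecidableEq I] [Nonempty I]
      (D : Digraph V) [DecidableRel D.Adj] (C : Digraph I) [DecidableRel C.Adj],
      (∀ i j, C.Adj i j → ¬ C.Adj j i) →
      (∀ i j : I, ∃ φ : Equiv.Perm I, (∀ a b, C.Adj (φ a) (φ b) ↔ C.Adj a b) ∧ φ i = j) →
      ∀ p : V → I, Function.Surjective p →
      (∀ x y, D.Adj x y ↔ C.Adj (p x) (p y)) →
      ∃ v : V, (univ.filter (fun u => D.Adj v u)).card ≤
        (univ.filter (fun w => w ≠ v ∧ ¬ D.Adj v w ∧ ∃ u, D.Adj v u ∧ D.Adj u w)).card) ∧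
    (∀ {V I : Type*} [Fintype V] [DecidableEq V] [Fintype I] [DecidableEq I] [Nonempty I]
      (D : Digraph V) [DecidableRel D.Adj] (C : Digraph I) [DecidableRel C.Adj],
      (∀ i j, C.Adj i j → ¬ C.Adj j i) →
      (∀ i j : I, ∃ φ : Equiv.Perm I, (∀ a b, C.Adj (φ a) (φ b) ↔ C.Adj a b) ∧ φ i = j) →
      ∀ p : V → I, Function.Surjective p →
      (∀ x y, p x ≠ p y → (D.Adj x y ↔ C.Adj (p x) (p y))) →
      (∀ i : I, ∃ v : V, p v = i ∧
        (univ.filter (fun u => p u = i ∧ D.Adj v u)).card ≤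
          (univ.filter (fun w => p w = i ∧ w ≠ v ∧ ¬ D.Adj v w ∧
            ∃ u, p u = i ∧ D.Adj v u ∧ D.Adj u w)).card) →
      ∃ v : V, (univ.filter (fun u => D.Adj v u)).card ≤
        (univ.filter (fun w => w ≠ v ∧ ¬ D.Adj v w ∧ ∃ u, D.Adj v u ∧ D.Adj u w)).card) ∧
    (∀ (V : Type) [Fintype V] [Nonempty V] (D : Digraph V),
      (∀ u v : V, D.Adj u v → ¬ D.Adj v u) →
      (∀ (v : V) (C : Set V), C ⊆ {u | D.Adj v u} → C.Nonempty →
        ∃ c ∈ C, ∀ c' ∈ C, ¬ D.Adj c c') →
      ∃ v : V, {u | D.Adj v u}.ncard ≤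
        {w | w ≠ v ∧ ¬ D.Adj v w ∧ ∃ u, D.Adj v u ∧ D.Adj u w}.ncard) := by
  refine ⟨?_, ?_, ?_, ?_⟩
  · intro V _ _ D _ horiented htrans v
    exact Vale.Agent.Lib.P038.vertex_transitive_ssn D horiented htrans v
  · intro V I _ _ _ _ _ D _ C _ hC hCtrans p hp hadj
    refine Vale.Agent.Lib.P038.composition_ssn D C hC hCtrans p hp (fun x y _ => hadj x y) ?_
    intro i
    obtain ⟨v, hv⟩ := hp i
    refine ⟨v, hv, ?_⟩
    have hempty : univ.filter (fun u => p u = i ∧ D.Adj v u) = ∅ := by
      apply filter_eq_empty_iff.mpr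
      intro u _ h
      have h2 := (hadj v u).mp h.2
      rw [hv, h.1] at h2
      exact hC i i h2 h2
    rw [hempty, card_empty]
    exact Nat.zero_le _
  · intro V I _ _ _ _ _ D _ C _ hC hCtrans p hp hmod hfib
    exact Vale.Agent.Lib.P038.composition_ssn D C hC hCtrans p hp hmod hfib
  · intro V _ _ D hD hac
    classical
    obtain ⟨v, -, hv⟩ := Finset.exists_min_image (Finset.univ : Finset V)
      (fun x => {u | D.Adj x u}.ncard) Finset.univ_nonempty
    refine ⟨v, ?_⟩
    by_cases hne : ({u | D.Adj v u} : Set V).Nonempty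
    · obtain ⟨a, ha, hsink⟩ := hac v {u | D.Adj v u} (le_refl _) hne
      have hva : D.Adj v a := ha
      have hsub : {u | D.Adj a u} ⊆
          {w | w ≠ v ∧ ¬ D.Adj v w ∧ ∃ u, D.Adj v u ∧ D.Adj u w} := by
        intro w hw
        have haw : D.Adj a w := hw
        refine ⟨?_, ?_, a, hva, haw⟩
        · rintro rfl
          exact hD _ _ hva haw
        · intro hvw
          exact hsink w hvw haw
      calc {u | D.Adj v u}.ncard ≤ {u | D.Adj a u}.ncard := hv a (Finset.mem_univ a)
        _ ≤ _ := Set.ncard_le_ncard hsub (Set.toFinite _)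
    · rw [Set.not_nonempty_iff_eq_empty] at hne
      rw [hne]
      simp

end Vale.Agent.Results.P038.FourClasses
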