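import Mathlib

namespace Vale.Agent.Results.P038.LocallyAcyclic

open Finset

/-- Seymour's second neighbourhood conjecture holds for every finite oriented graph in which
each out-neighbourhood induces an acyclic digraph (every nonempty set of out-neighbours of a
common vertex contains a vertex with no out-neighbour inside the set). -/
theorem result (V : Type) [Fintype V] [Nonempty V] (D : Digraph V)
    (hD : ∀ u v : V, D.Adj u v → ¬ D.Adj v u)
    (hac : ∀ (v : V) (C : Set V), C ⊆ {u | D.Adj v u} → C.Nonempty →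
      ∃ c ∈ C, ∀ c' ∈ C, ¬ D.Adj c c') :
    ∃ v : V, {u | D.Adj v u}.ncard ≤
      {w | w ≠ v ∧ ¬ D.Adj v w ∧ ∃ u, D.Adj v u ∧ D.Adj u w}.ncard := by
  classical
  -- choose a vertex of minimum out-degree
  obtain ⟨v, -, hv⟩ := Finset.exists_min_image (Finset.univ : Finset V)
    (fun x => {u | D.Adj x u}.ncard) Finset.univ_nonempty
  refine ⟨v, ?_⟩
  by_cases hne : ({u | D.Adj v u} : Set V).Nonempty
  · obtain ⟨a, ha, hsink⟩ := hac v {u | D.Adj v u} (le_refl _) hne
    have hva : D.Adj v a := ha
    have hsub : {u | D.Adj a u} ⊆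
        {w | w ≠ v ∧ ¬ D.Adj v w ∧ ∃ u, D.Adj v u ∧ D.Adj u w} := by
      intro w hw
      have haw : D.Adj a w := hw
      refine ⟨?_, ?_, a, hva, haw⟩
      · rintro rfl
        exact hD _ _ hva haw
      · intro hvw
        exact hsink w hvw haw
    calc {u | D.Adj v u}.ncard ≤ {u | D.Adj a u}.ncard := hv a (Finset.mem_univ a)
      _ ≤ _ := Set.ncard_le_ncard hsub (Set.toFinite _)
  · rw [Set.not_nonempty_iff_eq_empty] at hne
    rw [hne]
    simp

end Vale.Agent.Results.P038.LocallyAcyclic
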