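import Mathlib
import Vale.Agent.Lib.P038.VertexTransitive

/-!
# P038: the second neighbourhood inequality in vertex-transitive oriented graphs

In a finite oriented graph whose automorphism group acts transitively on the vertices, EVERY
vertex `v` satisfies `|N_1^+(v)| ≤ |N_2^+(v)|`.  The proof runs Kemperman's theorem on product
sets inside the automorphism group.
-/

namespace Vale.Agent.Results.P038.VertexTransitive

open Finset

theorem result {V : Type*} [Fintype V] [DecidableEq V] (D : Digraph V)
    [DecidableRel D.Adj]
    (horiented : ∀ u v, D.Adj u v → ¬ D.Adj v u)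
    (htrans : ∀ u v : V, ∃ φ : Equiv.Perm V, (∀ x y, D.Adj (φ x) (φ y) ↔ D.Adj x y) ∧ φ u = v)
    (v : V) :
    (univ.filter (fun u => D.Adj v u)).card ≤
      (univ.filter (fun w => w ≠ v ∧ ¬ D.Adj v w ∧ ∃ u, D.Adj v u ∧ D.Adj u w)).card :=
  Vale.Agent.Lib.P038.vertex_transitive_ssn D horiented htrans v

end Vale.Agent.Results.P038.VertexTransitive
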